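import Vale.Agent.P069.Dual

/-! The norm of `X` is asymptotically midpoint uniformly convex. -/

namespace Vale.Agent.P069

open Finset

/-- minimal nodes outside `A` -/
def Root (A : Finset T) (r : T) : Prop := r ∉ A ∧ ∀ a, a < r → a ∈ A

/-- segments starting at `r` -/
def Start (r : T) (S : Finset T) : Prop := Seg S ∧ r ∈ S ∧ ∀ u ∈ S, r ≤ u

/-- segments ending just below `r` -/
def End (r : T) (L : Finset T) : Prop :=
  Seg L ∧ (∀ a ∈ L, a < r) ∧ ∀ a ∈ L, ∀ u, a ≤ u → u < r → u ∈ L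

theorem Root.eq_of_le {A : Finset T} {r s : T} (hr : Root A r) (hs : Root A s) (h : r ≤ s) :
    r = s := by
  by_contra hne
  exact hr.1 (hs.2 r (lt_of_le_of_ne h hne))

theorem exists_max_start (z : Z) (r : T) :
    ∃ S, Start r S ∧ ∀ S', Start r S' → |sm z S'| ≤ |sm z S| := by
  classical
  have hfin : {v | ∃ S, Start r S ∧ v = |sm z S|}.Finite := by
    apply ((z.f.support.powerset.image (fun S => |sm z S|)).finite_toSet).subset
    rintro _ ⟨S, -, rfl⟩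
    simp only [coe_image, Set.mem_image, mem_coe, mem_powerset]
    refine ⟨S.filter (· ∈ z.f.support), fun u hu => (mem_filter.1 hu).2, ?_⟩
    congr 1
    rw [sm, sm, sum_filter]
    refine sum_congr rfl fun u _ => ?_
    split_ifs with h
    · rfl
    · exact (Finsupp.notMem_support_iff.1 h).symm
  obtain ⟨_, ⟨S, hS, rfl⟩, h⟩ := Set.exists_max_image _ id hfin
    ⟨_, {r}, ⟨seg_single r, mem_singleton_self r, by simp⟩, rfl⟩
  exact ⟨S, hS, fun S' hS' => h _ ⟨S', hS', rfl⟩⟩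

theorem End.subset {r : T} {L L' : Finset T} (h : End r L) (h' : End r L')
    (hc : L.card ≤ L'.card) : L ⊆ L' := by
  intro a ha
  by_contra hna
  have : L' ⊆ L := by
    intro b hb
    rcases T.chain (h.2.1 a ha).le (h'.2.1 b hb).le with h1 | h1
    · exact h.2.2 a ha b h1 (h'.2.1 b hb)
    · exact absurd (h'.2.2 b hb a h1 (h.2.1 a ha)) hna
  rw [eq_of_subset_of_card_le this hc] at hna
  exact hna ha

theorem End.sdiff {r : T} {L L' : Finset T} (h : End r L) (h' : End r L') : Seg (L \ L') := by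
  refine ⟨fun a ha b hb => h.1.cmp a (mem_sdiff.1 ha).1 b (mem_sdiff.1 hb).1, ?_⟩
  intro a ha b hb u h1 h2
  rw [mem_sdiff] at ha hb ⊢
  exact ⟨h.1.conv a ha.1 b hb.1 u h1 h2, fun hu => hb.2 (h'.2.2 u hu b h2 (h.2.1 b hb.1))⟩

theorem exists_sign (z : Z) (r : T) (lam : ℝ) :
    ∃ σ : ℝ, σ ^ 2 = 1 ∧ ∀ L, End r L → lam ≤ |sm z L| →
      ∃ L', End r L' ∧ L' ⊆ L ∧ lam ≤ σ * sm z L' := by
  classical
  by_cases h : ∃ n, ∃ L, End r L ∧ lam ≤ |sm z L| ∧ L.card = n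
  · obtain ⟨L', h1, h2, h3⟩ := Nat.find_spec h
    refine ⟨if 0 ≤ sm z L' then 1 else -1, by split_ifs <;> norm_num, fun L hL hl => ?_⟩
    refine ⟨L', h1, h1.subset hL ?_, ?_⟩
    · rw [h3]
      exact Nat.find_min' h ⟨L, hL, hl, rfl⟩
    · split_ifs with h4
      · rwa [abs_of_nonneg h4, ← one_mul (sm z L')] at h2
      · rwa [abs_of_neg (not_le.1 h4), neg_eq_neg_one_mul] at h2
  · exact ⟨1, by norm_num, fun L hL hl => absurd ⟨_, L, hL, hl, rfl⟩ h⟩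

theorem exists_cross {A : Finset T} (hA : Lower (· ∈ A)) {S : Finset T} (hS : Seg S)
    (h1 : ∃ a ∈ S, a ∈ A) (h2 : ∃ u ∈ S, u ∉ A) :
    ∃ r, Root A r ∧ Start r (S.filter (· ∉ A)) ∧ End r (S.filter (· ∈ A)) := by
  obtain ⟨a, haS, haA⟩ := h1
  obtain ⟨u, huS, huA⟩ := h2
  obtain ⟨r, hr⟩ := (S.filter (· ∉ A)).exists_minimal ⟨u, mem_filter.2 ⟨huS, huA⟩⟩
  have hr1 := mem_filter.1 hr.1
  have hmin : ∀ v ∈ S.filter (· ∉ A), r ≤ v := by
    intro v hv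
    rcases hS.cmp r hr1.1 v (mem_filter.1 hv).1 with h | h
    · exact h
    · exact hr.2 hv h
  have hlt : ∀ b ∈ S, b ∈ A → b < r := by
    intro b hb hbA
    rcases hS.cmp r hr1.1 b hb with h | h
    · exact absurd (hA r b h hbA) hr1.2
    · exact lt_of_le_of_ne h (fun hh => hr1.2 (hh ▸ hbA))
  have hin : ∀ b ∈ S, b < r → b ∈ A := by
    intro b hb hbr
    by_contra hbA
    exact absurd (hmin b (mem_filter.2 ⟨hb, hbA⟩)) (not_le_of_gt hbr)
  refine ⟨r, ⟨hr1.2, ?_⟩, ⟨hS.filter _ hA.conv_not, hr.1, hmin⟩,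
    ⟨hS.filter _ hA.conv, ?_, ?_⟩⟩
  · intro b hb
    rcases T.chain hb.le (hlt a haS haA).le with h | h
    · exact hA b a h haA
    · exact hin b (hS.conv a haS r hr1.1 b h hb.le) hb
  · intro b hb
    exact hlt b (mem_filter.1 hb).1 (mem_filter.1 hb).2
  · intro b hb v h3 h4
    have hv : v ∈ S := hS.conv b (mem_filter.1 hb).1 r hr1.1 v h3 h4.le
    exact mem_filter.2 ⟨hv, hin v hv h4⟩

theorem sm_filter (z : Z) (S : Finset T) (p : T → Prop) [DecidablePred p]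
    (h : ∀ u, ¬ p u → z.f u = 0) : sm z (S.filter p) = sm z S := by
  rw [sm, sm, sum_filter]
  refine sum_congr rfl fun u _ => ?_
  split_ifs with h1
  · rfl
  · exact (h u h1).symm

theorem main_estimate {A : Finset T} (hA : Lower (· ∈ A)) (z1 w : Z)
    (h1 : ∀ u, u ∉ A → z1.f u = 0) (hz1 : ‖z1‖ ≤ 1) (h2 : ∀ u ∈ A, w.f u = 0) (hw : ‖w‖ ≤ 2)
    {τ : ℝ} (hτ : 0 < τ) (M σ m : T → ℝ) (hM : ∀ r, 0 ≤ M r) (hσ : ∀ r, σ r ^ 2 = 1)
    (hm : ∀ r, Root A r → m r ^ 2 = M r ^ 2)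
    (B : Finset T) (hB : ∀ u, u ∉ B → m u ^ 2 = 0) (hBs : ∑ u ∈ B, m u ^ 2 ≤ 1)
    (hcut : ∀ r L, End r L → 2 * τ * M r ≤ |sm z1 L| →
      ∃ L', End r L' ∧ L' ⊆ L ∧ 2 * τ * M r ≤ σ r * sm z1 L')
    (hsign : ∀ r S, Root A r → Start r S → -(2 * M r) ≤ σ r * sm w S ∧ σ r * sm w S ≤ 0) :
    ‖z1 + τ • w‖ ^ 2 ≤ 1 + 12 * τ ^ 2 := by
  classical
  apply norm_sq_le
  intro 𝒮 h
  have key : ∀ S ∈ 𝒮, ∃ U V : Finset T, (Seg U ∧ U ⊆ S) ∧ (Seg V ∧ V ⊆ S) ∧ Disjoint U V ∧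
      (sm (z1 + τ • w) S) ^ 2 ≤ ((sm z1 U) ^ 2 + (sm z1 V) ^ 2) + τ ^ 2 * (sm w S) ^ 2 +
        8 * τ ^ 2 * ∑ r ∈ S, m r ^ 2 := by
    intro S hS
    have hseg := h.1 S hS
    have hs0 : 0 ≤ ∑ r ∈ S, m r ^ 2 := sum_nonneg fun _ _ => sq_nonneg _
    rw [sm_add, sm_smul]
    by_cases hneg : sm z1 S * sm w S ≤ 0
    · refine ⟨S, ∅, ⟨hseg, subset_rfl⟩, ⟨seg_empty, empty_subset _⟩, by simp, ?_⟩
      have : 0 ≤ τ ^ 2 * ∑ r ∈ S, m r ^ 2 := by positivity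
      have : τ * (sm z1 S * sm w S) ≤ 0 := mul_nonpos_of_nonneg_of_nonpos hτ.le hneg
      rw [sm_empty]
      nlinarith
    have hpos : 0 < sm z1 S * sm w S := not_le.1 hneg
    have e1 : ∃ a ∈ S, a ∈ A := by
      by_contra hh
      have : sm z1 S = 0 := sum_eq_zero fun u hu => h1 u (fun hu' => hh ⟨u, hu, hu'⟩)
      rw [this, zero_mul] at hpos
      exact lt_irrefl _ hpos
    have e2 : ∃ u ∈ S, u ∉ A := by
      by_contra hh
      have : sm w S = 0 := sum_eq_zero fun u hu => h2 u (by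
        by_contra hu'
        exact hh ⟨u, hu, hu'⟩)
      rw [this, mul_zero] at hpos
      exact lt_irrefl _ hpos
    obtain ⟨r, hr, hst, hen⟩ := exists_cross hA hseg e1 e2
    have hv : sm z1 (S.filter (· ∈ A)) = sm z1 S := sm_filter _ _ _ h1
    have hω : sm w (S.filter (· ∉ A)) = sm w S :=
      sm_filter _ _ _ (fun u hu => h2 u (not_not.1 hu))
    obtain ⟨c1, c2⟩ := hsign r _ hr hst
    rw [hω] at c1 c2
    have hrS : r ∈ S := (mem_filter.1 hst.2.1).1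
    have hmr : M r ^ 2 ≤ ∑ r ∈ S, m r ^ 2 := by
      rw [← hm r hr]
      exact single_le_sum (f := fun r => m r ^ 2) (fun _ _ => sq_nonneg _) hrS
    have hσr := hσ r
    have hMr := hM r
    set v := sm z1 S with hvdef
    set ω := sm w S with hωdef
    set s := σ r with hsdef
    have hprod : (s * v) * (s * ω) = v * ω := by
      calc _ = s ^ 2 * (v * ω) := by ring
        _ = _ := by rw [hσr, one_mul]
    have hsv : s * v < 0 := by
      by_contra hh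
      have := mul_nonpos_of_nonneg_of_nonpos (not_lt.1 hh) c2
      linarith
    have habs : |v| = -(s * v) := by
      have : |s| = 1 := by
        have := sq_abs s
        nlinarith [abs_nonneg s]
      rw [← abs_of_neg hsv, abs_mul, this, one_mul]
    by_cases hbig : 2 * τ * M r ≤ |v|
    · obtain ⟨L', g1, g2, g3⟩ := hcut r _ hen (by rwa [hv])
      refine ⟨S.filter (· ∈ A) \ L', L', ⟨hen.sdiff g1, sdiff_subset.trans (filter_subset _ _)⟩,
        ⟨g1.1, g2.trans (filter_subset _ _)⟩, sdiff_disjoint, ?_⟩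
      have hα : sm z1 (S.filter (· ∈ A) \ L') = v - sm z1 L' := by
        rw [← hv, eq_sub_iff_add_eq]
        exact sum_sdiff g2
      rw [hα]
      set β := sm z1 L'
      have hprod2 : (s * v) * (s * β) = v * β := by
        calc _ = s ^ 2 * (v * β) := by ring
          _ = _ := by rw [hσr, one_mul]
      have g4 : 0 ≤ s * β + τ * (s * ω) := by nlinarith
      have g5 : 0 ≤ -(s * v) * (s * β + τ * (s * ω)) := mul_nonneg (by linarith) g4
      have g6 : 0 ≤ τ ^ 2 * ∑ r ∈ S, m r ^ 2 := by positivity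
      have g7 : v * β + τ * (v * ω) ≤ 0 := by
        rw [← hprod, ← hprod2]
        linarith
      nlinarith [sq_nonneg β]
    · refine ⟨S, ∅, ⟨hseg, subset_rfl⟩, ⟨seg_empty, empty_subset _⟩, by simp, ?_⟩
      rw [habs] at hbig
      have g1 : -(s * v) ≤ 2 * τ * M r := (not_le.1 hbig).le
      have g2 : v * ω ≤ (2 * τ * M r) * (2 * M r) := by
        rw [← hprod]
        calc (s * v) * (s * ω) = (-(s * v)) * (-(s * ω)) := by ring
          _ ≤ _ := mul_le_mul g1 (by linarith) (by linarith) (by positivity)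
      have g3 : τ * (v * ω) ≤ τ * ((2 * τ * M r) * (2 * M r)) :=
        mul_le_mul_of_nonneg_left g2 hτ.le
      have g4 : τ ^ 2 * M r ^ 2 ≤ τ ^ 2 * ∑ r ∈ S, m r ^ 2 :=
        mul_le_mul_of_nonneg_left hmr (sq_nonneg _)
      rw [sm_empty]
      nlinarith
  choose! U V hU hV hUV hle using key
  have s1 := split_le z1 h U V hU hV hUV
  have s2 : ∑ S ∈ 𝒮, (sm w S) ^ 2 ≤ ‖w‖ ^ 2 := sv_le_jn w h
  have s3 : ∑ S ∈ 𝒮, ∑ r ∈ S, m r ^ 2 ≤ 1 :=
    (sum_disj_le 𝒮 (fun S => S) h.2 _ (fun _ => sq_nonneg _) B hB).trans hBs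
  have s4 : ‖z1‖ ^ 2 ≤ 1 := by nlinarith [norm_nonneg z1]
  have s5 : ‖w‖ ^ 2 ≤ 4 := by nlinarith [norm_nonneg w]
  calc sv (z1 + τ • w) 𝒮 ≤ ∑ S ∈ 𝒮, (((sm z1 (U S)) ^ 2 + (sm z1 (V S)) ^ 2) +
        τ ^ 2 * (sm w S) ^ 2 + 8 * τ ^ 2 * ∑ r ∈ S, m r ^ 2) := sum_le_sum hle
    _ = ∑ S ∈ 𝒮, ((sm z1 (U S)) ^ 2 + (sm z1 (V S)) ^ 2) + τ ^ 2 * ∑ S ∈ 𝒮, (sm w S) ^ 2 +
        8 * τ ^ 2 * ∑ S ∈ 𝒮, ∑ r ∈ S, m r ^ 2 := by
        rw [sum_add_distrib, sum_add_distrib, mul_sum, mul_sum]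
    _ ≤ _ := by nlinarith [sq_nonneg τ]

theorem key_decomp {A : Finset T} (hA : Lower (· ∈ A)) (z1 z2 : Z)
    (h1 : ∀ u, u ∉ A → z1.f u = 0) (hz1 : ‖z1‖ ≤ 1) (h2 : ∀ u ∈ A, z2.f u = 0) (hz2 : ‖z2‖ ≤ 1)
    {τ : ℝ} (hτ : 0 < τ) :
    ∃ w1 w2 : Z, z2 = w1 - w2 ∧ ∀ w, (w = w1 ∨ w = w2) →
      (∀ u ∈ A, w.f u = 0) ∧ ‖w‖ ≤ 2 ∧ ‖z1 + τ • w‖ ^ 2 ≤ 1 + 12 * τ ^ 2 := by
  classical
  choose Sr hSr hmax using exists_max_start z2
  set M : T → ℝ := fun r => |sm z2 (Sr r)| with hMdef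
  have hM : ∀ r, 0 ≤ M r := fun r => abs_nonneg _
  choose σ hσ hcut using fun r => exists_sign z1 r (2 * τ * M r)
  set R0 := (z2.f.support.biUnion low).filter (Root A) with hR0
  set u : Z := ∑ r ∈ R0, (σ r * M r) • e r with hu
  have hu_apply : ∀ r, u.f r = if r ∈ R0 then σ r * M r else 0 := fun r => by
    rw [hu, comb_apply]
  have hu_root : ∀ r, Root A r → u.f r = σ r * M r := by
    intro r hr
    rw [hu_apply]
    split_ifs with h
    · rfl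
    · have : sm z2 (Sr r) = 0 := by
        apply sum_eq_zero
        intro v hv
        by_contra hne
        exact h (mem_filter.2 ⟨mem_biUnion.2 ⟨v, Finsupp.mem_support_iff.2 hne,
          mem_low.2 ((hSr r).2.2 v hv)⟩, hr⟩)
      simp [hMdef, this]
  have hu_not : ∀ r, ¬ Root A r → u.f r = 0 := by
    intro r hr
    rw [hu_apply, if_neg (fun h => hr (mem_filter.1 h).2)]
  have hu_sq : ∀ r, Root A r → u.f r ^ 2 = M r ^ 2 := by
    intro r hr
    rw [hu_root r hr, mul_pow, hσ, one_mul]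
  have hB : ∀ r, r ∉ R0 → u.f r ^ 2 = 0 := by
    intro r hr
    rw [hu_apply, if_neg hr]; ring
  have hBs : ∑ r ∈ R0, u.f r ^ 2 ≤ 1 := by
    have := fam_le z2 R0 Sr (fun r _ => (hSr r).1) (by
      intro r hr s hs hne
      rw [disjoint_left]
      intro v h3 h4
      have hr' := (mem_filter.1 hr).2
      have hs' := (mem_filter.1 hs).2
      rcases T.chain ((hSr r).2.2 v h3) ((hSr s).2.2 v h4) with h5 | h5
      · exact hne (hr'.eq_of_le hs' h5)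
      · exact hne (hs'.eq_of_le hr' h5).symm)
    have h3 : ∑ r ∈ R0, u.f r ^ 2 = ∑ r ∈ R0, (sm z2 (Sr r)) ^ 2 := by
      refine sum_congr rfl fun r hr => ?_
      rw [hu_sq r (mem_filter.1 hr).2, hMdef, sq_abs]
    rw [h3]
    nlinarith [norm_nonneg z2]
  have hsm_root : ∀ S, Seg S → ∀ r ∈ S, Root A r → sm u S = u.f r := by
    intro S hS r hrS hr
    apply sum_eq_single_of_mem r hrS
    intro b hb hne
    apply hu_not
    intro hb'
    rcases hS.cmp b hb r hrS with h5 | h5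
    · exact hne (hb'.eq_of_le hr h5)
    · exact hne (hr.eq_of_le hb' h5).symm
  have hun : ‖u‖ ≤ 1 := by
    apply norm_le _ zero_le_one
    intro 𝒮 h
    have h3 : ∀ S ∈ 𝒮, (sm u S) ^ 2 ≤ ∑ r ∈ S, u.f r ^ 2 := by
      intro S hS
      by_cases hh : ∃ r ∈ S, Root A r
      · obtain ⟨r, hrS, hr⟩ := hh
        rw [hsm_root S (h.1 S hS) r hrS hr]
        exact single_le_sum (f := fun r => u.f r ^ 2) (fun _ _ => sq_nonneg _) hrS
      · have : sm u S = 0 := sum_eq_zero fun v hv => hu_not v (fun hv' => hh ⟨v, hv, hv'⟩)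
        rw [this]
        simpa using sum_nonneg (fun r _ => sq_nonneg (u.f r))
    calc sv u 𝒮 ≤ ∑ S ∈ 𝒮, ∑ r ∈ S, u.f r ^ 2 := sum_le_sum h3
      _ ≤ ∑ r ∈ R0, u.f r ^ 2 := sum_disj_le 𝒮 (fun S => S) h.2 _ (fun _ => sq_nonneg _) R0 hB
      _ ≤ 1 ^ 2 := by simpa using hBs
  have huA : ∀ v ∈ A, u.f v = 0 := fun v hv => hu_not v (fun h => h.1 hv)
  have hσu : ∀ r S, Root A r → Start r S → σ r * sm u S = M r := by
    intro r S hr hS
    rw [hsm_root S hS.1 r hS.2.1 hr, hu_root r hr, ← mul_assoc, ← sq, hσ, one_mul]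
  refine ⟨z2 - u, -u, by abel, ?_⟩
  rintro w (rfl | rfl)
  · have g1 : ∀ v ∈ A, (z2 - u).f v = 0 := by
      intro v hv
      simp [h2 v hv, huA v hv]
    have g2 : ‖z2 - u‖ ≤ 2 := (norm_sub_le _ _).trans (by linarith)
    refine ⟨g1, g2, main_estimate hA z1 _ h1 hz1 g1 g2 hτ M σ u.f hM hσ hu_sq R0 hB hBs hcut ?_⟩
    intro r S hr hS
    rw [sm_sub, mul_sub, hσu r S hr hS]
    have g3 : |σ r * sm z2 S| ≤ M r := by
      have : |σ r| = 1 := by
        have := sq_abs (σ r)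
        have := hσ r
        nlinarith [abs_nonneg (σ r)]
      rw [abs_mul, this, one_mul]
      exact hmax r S hS
    rw [abs_le] at g3
    constructor <;> linarith [g3.1, g3.2]
  · have g1 : ∀ v ∈ A, (-u).f v = 0 := by
      intro v hv
      simp [huA v hv]
    have g2 : ‖-u‖ ≤ 2 := by rw [norm_neg]; linarith
    refine ⟨g1, g2, main_estimate hA z1 _ h1 hz1 g1 g2 hτ M σ u.f hM hσ hu_sq R0 hB hBs hcut ?_⟩
    intro r S hr hS
    rw [sm_neg, mul_neg, hσu r S hr hS]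
    have := hM r
    constructor <;> linarith

theorem amuc {t : ℝ} (ht : 0 < t) (x : X) (hx : ‖x‖ = 1) :
    ∃ F : Submodule ℝ X, IsClosed (F : Set X) ∧ FiniteDimensional ℝ (X ⧸ F) ∧
      ∀ y ∈ F, ‖y‖ = 1 → t ^ 2 / (192 + 2 * t ^ 2) ≤ max ‖x + t • y‖ ‖x - t • y‖ - 1 := by
  classical
  set τ := t / 24 with hτdef
  have hτ : 0 < τ := by positivity
  set η := (t ^ 2 / 192) / (1 + 2 * τ + τ * t / 2) with hηdef
  have hη : 0 < η := by positivity
  have hηeq : η * (1 + 2 * τ + τ * t / 2) = t ^ 2 / 192 := by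
    rw [hηdef]; field_simp
  obtain ⟨z1, hz1, hxz1⟩ := exists_norming x hη
  obtain ⟨B, hB⟩ := tail1 x hη
  obtain ⟨A, hBA, hA⟩ := exists_lower (B ∪ z1.f.support)
  have h1 : ∀ u, u ∉ A → z1.f u = 0 := by
    intro u hu
    by_contra h
    exact hu (hBA (mem_union_right _ (Finsupp.mem_support_iff.2 h)))
  let Φ : X →L[ℝ] (A → ℝ) :=
    ContinuousLinearMap.pi (fun a : A => NormedSpace.inclusionInDoubleDual ℝ Z (e a))
  refine ⟨LinearMap.ker Φ.toLinearMap, Φ.isClosed_ker,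
    Φ.toLinearMap.quotKerEquivRange.symm.finiteDimensional, ?_⟩
  intro y hyF hy
  have hyA : ∀ a ∈ A, y (e a) = 0 := by
    intro a ha
    have := congrFun (LinearMap.mem_ker.1 hyF) ⟨a, ha⟩
    exact this
  obtain ⟨z, hz, hyz⟩ := exists_norming y hη
  set z2 := proj (fun u => ¬ u ∈ A) z with hz2def
  have hz2 : ‖z2‖ ≤ 1 := (norm_proj_le hA.conv_not z).trans hz
  have h2 : ∀ u ∈ A, z2.f u = 0 := fun u hu => proj_neg z (by simpa using hu)
  have hyz2 : 1 - η ≤ y z2 := by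
    rw [hz2def, apply_eq_of_vanish y A hyA, ← hy]
    exact hyz
  obtain ⟨w1, w2, hw, hprop⟩ := key_decomp hA z1 z2 h1 hz1 h2 hz2 hτ
  have hex : ∃ w, (w = w1 ∨ w = w2) ∧ (1 - η) / 2 ≤ |y w| := by
    by_contra hh
    have a1 : |y w1| < (1 - η) / 2 := by
      by_contra h
      exact hh ⟨w1, Or.inl rfl, not_lt.1 h⟩
    have a2 : |y w2| < (1 - η) / 2 := by
      by_contra h
      exact hh ⟨w2, Or.inr rfl, not_lt.1 h⟩
    rw [hw, map_sub] at hyz2
    rw [abs_lt] at a1 a2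
    linarith [a1.2, a2.1]
  obtain ⟨w, hww, hyw⟩ := hex
  obtain ⟨p1, p2, p3⟩ := hprop w hww
  have hxw : |x w| ≤ η * 2 :=
    (hB w (fun u hu => p1 u (hBA (mem_union_left _ hu)))).trans
      (mul_le_mul_of_nonneg_left p2 hη.le)
  have hyz1 : y z1 = 0 := by
    rw [apply_eq_sum y z1 A h1]
    exact sum_eq_zero fun u hu => by rw [hyA u hu, mul_zero]
  have hnorm : ‖z1 + τ • w‖ ≤ 1 + 6 * τ ^ 2 := by
    apply (abs_le_of_sq_le_sq' _ (by positivity)).2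
    nlinarith [sq_nonneg (τ ^ 2)]
  set m := max ‖x + t • y‖ ‖x - t • y‖ with hm
  have hm0 : 0 ≤ m := (norm_nonneg _).trans (le_max_left _ _)
  have b1 : (x + t • y) (z1 + τ • w) ≤ m * (1 + 6 * τ ^ 2) :=
    calc _ ≤ ‖(x + t • y) (z1 + τ • w)‖ := le_abs_self _
      _ ≤ ‖x + t • y‖ * ‖z1 + τ • w‖ := (x + t • y).le_opNorm _
      _ ≤ _ := mul_le_mul (le_max_left _ _) hnorm (norm_nonneg _) hm0
  have b2 : (x - t • y) (z1 + τ • w) ≤ m * (1 + 6 * τ ^ 2) :=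
    calc _ ≤ ‖(x - t • y) (z1 + τ • w)‖ := le_abs_self _
      _ ≤ ‖x - t • y‖ * ‖z1 + τ • w‖ := (x - t • y).le_opNorm _
      _ ≤ _ := mul_le_mul (le_max_right _ _) hnorm (norm_nonneg _) hm0
  have c1 : (x + t • y) (z1 + τ • w) = x z1 + τ * x w + τ * t * y w := by
    simp only [_root_.add_apply, _root_.smul_apply, map_add, map_smul, smul_eq_mul, hyz1]
    ring
  have c2 : (x - t • y) (z1 + τ • w) = x z1 + τ * x w - τ * t * y w := by
    simp only [_root_.sub_apply, _root_.smul_apply, map_add, map_smul, smul_eq_mul, hyz1]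
    ring
  have d1 : x z1 + τ * x w + τ * t * |y w| ≤ m * (1 + 6 * τ ^ 2) := by
    rcases abs_cases (y w) with h | h
    · rw [h.1, ← c1]; exact b1
    · rw [h.1, mul_neg, ← sub_eq_add_neg, ← c2]; exact b2
  have d2 : 1 + t ^ 2 / 64 ≤ m * (1 + 6 * τ ^ 2) := by
    have f1 : -(η * 2) ≤ x w := (abs_le.1 hxw).1
    have f2 : τ * (-(η * 2)) ≤ τ * x w := mul_le_mul_of_nonneg_left f1 hτ.le
    have f3 : τ * t * ((1 - η) / 2) ≤ τ * t * |y w| :=
      mul_le_mul_of_nonneg_left hyw (by positivity)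
    have f4 : τ * t = t ^ 2 / 24 := by rw [hτdef]; ring
    rw [hx] at hxz1
    nlinarith
  have d3 : 6 * τ ^ 2 = t ^ 2 / 96 := by rw [hτdef]; ring
  rw [d3] at d2
  rw [div_le_iff₀ (by positivity)]
  nlinarith

end Vale.Agent.P069
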