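import Vale.Agent.P069.Tree

/-! Projections, square estimates, tails, reflexivity of the dual space. -/

namespace Vale.Agent.P069

open Finset

open Classical in
/-- coordinate projection -/
noncomputable def proj (p : T → Prop) : Z →ₗ[ℝ] Z where
  toFun z := Z.mk (z.f.filter p)
  map_add' z w := by
    apply Z.ext'
    intro u
    simp [Finsupp.filter_add]
  map_smul' a z := by
    apply Z.ext'
    intro u
    simp [Finsupp.filter_smul]

open Classical in
theorem proj_apply (p : T → Prop) (z : Z) (u : T) :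
    (proj p z).f u = if p u then z.f u else 0 := by
  change (z.f.filter p) u = _
  rw [Finsupp.filter_apply]

theorem proj_pos {p : T → Prop} (z : Z) {u : T} (h : p u) : (proj p z).f u = z.f u := by
  rw [proj_apply, if_pos h]

theorem proj_neg {p : T → Prop} (z : Z) {u : T} (h : ¬ p u) : (proj p z).f u = 0 := by
  rw [proj_apply, if_neg h]

theorem sm_proj (p : T → Prop) [DecidablePred p] (z : Z) (S : Finset T) :
    sm (proj p z) S = sm z (S.filter p) := by
  simp only [sm, sum_filter]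
  refine sum_congr rfl fun u _ => ?_
  split_ifs with h
  · exact proj_pos z h
  · exact proj_neg z h

theorem proj_add_proj (p : T → Prop) (z : Z) : proj p z + proj (fun u => ¬ p u) z = z := by
  apply Z.ext'
  intro u
  by_cases h : p u
  · simp [proj_apply, h]
  · simp [proj_apply, h]

theorem norm_proj_le {p : T → Prop} (hp : Conv p) (z : Z) : ‖proj p z‖ ≤ ‖z‖ := by
  classical
  apply norm_le _ (norm_nonneg _)
  intro 𝒮 h
  simp only [sv, sm_proj]
  apply fam_le z 𝒮 (fun S => S.filter p)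
  · intro S hS
    exact (h.1 S hS).filter p hp
  · intro S hS S' hS' hne
    exact Disjoint.mono (filter_subset _ _) (filter_subset _ _) (h.2 S hS S' hS' hne)

/-- lower square estimate -/
theorem lower_sq {p : T → Prop} (hp : Lower p) (z : Z) :
    ‖proj p z‖ ^ 2 + ‖proj (fun u => ¬ p u) z‖ ^ 2 ≤ ‖z‖ ^ 2 := by
  classical
  have key : ∀ 𝒮, Adm 𝒮 → ∀ 𝒮', Adm 𝒮' →
      sv (proj p z) 𝒮 + sv (proj (fun u => ¬ p u) z) 𝒮' ≤ ‖z‖ ^ 2 := by
    intro 𝒮 h 𝒮' h'
    have := fam_le z (𝒮.disjSum 𝒮')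
      (Sum.elim (fun S => S.filter p) (fun S => S.filter (fun u => ¬ p u))) (by
      rintro (S | S) hS
      · exact (h.1 S (by simpa using hS)).filter p hp.conv
      · exact (h'.1 S (by simpa using hS)).filter _ hp.conv_not) (by
      rintro (S | S) hS (S' | S') hS' hne
      · exact Disjoint.mono (filter_subset _ _) (filter_subset _ _)
          (h.2 S (by simpa using hS) S' (by simpa using hS') (by simpa using hne))
      · simp only [Sum.elim_inl, Sum.elim_inr, disjoint_left, mem_filter]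
        tauto
      · simp only [Sum.elim_inl, Sum.elim_inr, disjoint_left, mem_filter]
        tauto
      · exact Disjoint.mono (filter_subset _ _) (filter_subset _ _)
          (h'.2 S (by simpa using hS) S' (by simpa using hS') (by simpa using hne)))
    rw [sum_disjSum] at this
    simp only [sv, sm_proj]
    simpa using this
  have h1 : ∀ 𝒮', Adm 𝒮' →
      sv (proj (fun u => ¬ p u) z) 𝒮' ≤ ‖z‖ ^ 2 - ‖proj p z‖ ^ 2 := by
    intro 𝒮' h'
    have : ‖proj p z‖ ^ 2 ≤ ‖z‖ ^ 2 - sv (proj (fun u => ¬ p u) z) 𝒮' := by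
      apply norm_sq_le
      intro 𝒮 h
      linarith [key 𝒮 h 𝒮' h']
    linarith
  have := norm_sq_le _ h1
  linarith

/-- upper square estimate for vectors living on different trees -/
theorem upper_sq (N : ℕ) (z w : Z) (hz : ∀ u, N ≤ u.tr → z.f u = 0)
    (hw : ∀ u, u.tr < N → w.f u = 0) : ‖z + w‖ ^ 2 ≤ ‖z‖ ^ 2 + ‖w‖ ^ 2 := by
  apply norm_sq_le
  intro 𝒮 h
  have h1 : sv (z + w) 𝒮 = sv z 𝒮 + sv w 𝒮 := by
    simp only [sv, ← sum_add_distrib]
    refine sum_congr rfl fun S hS => ?_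
    rw [sm_add]
    by_cases hh : ∃ a ∈ S, a.tr < N
    · obtain ⟨a, ha, haN⟩ := hh
      have : sm w S = 0 := by
        apply sum_eq_zero
        intro u hu
        apply hw
        rcases (h.1 S hS).cmp a ha u hu with h2 | h2
        · rw [← h2.1]; exact haN
        · rw [h2.1]; exact haN
      rw [this]; ring
    · have : sm z S = 0 := by
        apply sum_eq_zero
        intro u hu
        apply hz
        by_contra h2
        exact hh ⟨u, hu, not_le.1 h2⟩
      rw [this]; ring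
  rw [h1]
  exact add_le_add (sv_le_jn z h) (sv_le_jn w h)

theorem sum_sq_le_norm_sq (z : Z) (B : Finset T) : ∑ u ∈ B, (z.f u) ^ 2 ≤ ‖z‖ ^ 2 := by
  have := fam_le z B (fun u => {u}) (fun u _ => seg_single u) (by
    intro i _ j _ hij
    simpa using hij)
  simpa using this

theorem norm_sq_le_sum_sq (N : ℕ) (z : Z) (hz : ∀ u, N ≤ u.tr → z.f u = 0) (B : Finset T)
    (hB : ∀ u, u ∉ B → z.f u = 0) : ‖z‖ ^ 2 ≤ N * ∑ u ∈ B, (z.f u) ^ 2 := by
  classical
  apply norm_sq_le
  intro 𝒮 h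
  have h1 : ∀ S ∈ 𝒮, (sm z S) ^ 2 ≤ N * ∑ u ∈ S, (z.f u) ^ 2 := by
    intro S hS
    have h2 : sm z S = ∑ u ∈ S.filter (fun u => u.tr < N), z.f u := by
      rw [sm, sum_filter]
      refine sum_congr rfl fun u _ => ?_
      split_ifs with h3
      · rfl
      · exact hz u (not_lt.1 h3)
    have h3 : (S.filter (fun u => u.tr < N)).card ≤ N := by
      apply Seg.card_le ((h.1 S hS).filter _ ?_) (fun u hu => (mem_filter.1 hu).2)
      intro a b u ha _ h4 _
      rw [← h4.1]; exact ha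
    rw [h2]
    calc _ ≤ ((S.filter (fun u => u.tr < N)).card : ℝ) *
          ∑ u ∈ S.filter (fun u => u.tr < N), (z.f u) ^ 2 := sq_sum_le_card_mul_sum_sq
      _ ≤ N * ∑ u ∈ S, (z.f u) ^ 2 := by
          apply mul_le_mul (by exact_mod_cast h3) _ (sum_nonneg fun _ _ => sq_nonneg _)
            (Nat.cast_nonneg _)
          exact sum_le_sum_of_subset_of_nonneg (filter_subset _ _) fun _ _ _ => sq_nonneg _
  calc sv z 𝒮 ≤ ∑ S ∈ 𝒮, N * ∑ u ∈ S, (z.f u) ^ 2 := sum_le_sum h1
    _ = N * ∑ S ∈ 𝒮, ∑ u ∈ S, (z.f u) ^ 2 := by rw [mul_sum]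
    _ ≤ _ := by
      apply mul_le_mul_of_nonneg_left _ (Nat.cast_nonneg _)
      apply sum_disj_le 𝒮 (fun S => S) h.2 _ (fun _ => sq_nonneg _)
      intro u hu
      rw [hB u hu]; ring

/-- unit vectors -/
noncomputable def e (u : T) : Z := Z.mk (Finsupp.single u 1)

theorem e_apply (u v : T) : (e u).f v = if u = v then 1 else 0 := by
  simp [e, Finsupp.single_apply]

theorem f_sum {ι : Type*} (I : Finset ι) (g : ι → Z) (u : T) :
    (∑ i ∈ I, g i).f u = ∑ i ∈ I, (g i).f u := by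
  classical
  induction I using Finset.induction_on with
  | empty => simp
  | insert a s ha ih => rw [sum_insert ha, sum_insert ha, ← ih]; simp

theorem comb_apply (B : Finset T) (c : T → ℝ) (v : T) :
    (∑ u ∈ B, c u • e u).f v = if v ∈ B then c v else 0 := by
  rw [f_sum]
  simp [e_apply]

theorem eq_comb (z : Z) (B : Finset T) (hB : ∀ u, u ∉ B → z.f u = 0) :
    z = ∑ u ∈ B, z.f u • e u := by
  apply Z.ext'
  intro v
  rw [comb_apply]
  split_ifs with h
  · rfl
  · exact hB v h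

theorem apply_eq_sum (x : Z →L[ℝ] ℝ) (z : Z) (B : Finset T) (hB : ∀ u, u ∉ B → z.f u = 0) :
    x z = ∑ u ∈ B, z.f u * x (e u) := by
  conv_lhs => rw [eq_comb z B hB]
  simp [map_sum]

theorem norm_e_le (u : T) : ‖e u‖ ≤ 1 := by
  apply norm_le _ zero_le_one
  intro 𝒮 h
  have h1 : ∀ S ∈ 𝒮, (sm (e u) S) ^ 2 = ∑ v ∈ S, (e u).f v := by
    intro S _
    simp only [sm, e_apply, sum_ite_eq]
    split_ifs <;> simp
  rw [sv, sum_congr rfl h1]
  have := sum_disj_le 𝒮 (fun S => S) h.2 (fun v => (e u).f v) (by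
    intro v
    rw [e_apply]
    split_ifs <;> simp) {u} (by
    intro v hv
    rw [e_apply, if_neg]
    rintro rfl
    simp at hv)
  simpa [e_apply] using this

theorem exists_lower (B : Finset T) : ∃ A : Finset T, B ⊆ A ∧ Lower (· ∈ A) := by
  classical
  refine ⟨B.biUnion low, ?_, ?_⟩
  · intro u hu
    exact mem_biUnion.2 ⟨u, hu, mem_low.2 le_rfl⟩
  · intro a b hab hb
    obtain ⟨s, hs, hb⟩ := mem_biUnion.1 hb
    exact mem_biUnion.2 ⟨s, hs, mem_low.2 (hab.trans (mem_low.1 hb))⟩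

section Abstract

variable {E : Type*} [NormedAddCommGroup E] [NormedSpace ℝ E]

theorem exists_norming (g : E →L[ℝ] ℝ) {ε : ℝ} (hε : 0 < ε) :
    ∃ v : E, ‖v‖ ≤ 1 ∧ ‖g‖ - ε ≤ g v := by
  obtain ⟨v, h1, h2⟩ := g.exists_lt_apply_of_lt_opNorm (r := ‖g‖ - ε) (by linarith)
  rcases le_total 0 (g v) with h | h
  · refine ⟨v, h1.le, ?_⟩
    rw [Real.norm_eq_abs, abs_of_nonneg h] at h2
    exact h2.le
  · refine ⟨-v, by simpa using h1.le, ?_⟩
    rw [Real.norm_eq_abs, abs_of_nonpos h] at h2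
    simpa using h2.le

theorem smooth_lemma (g : E →L[ℝ] ℝ) {η : ℝ} (hη : 0 < η) :
    ∃ ε > 0, ∀ v : E, ‖g‖ - ε ≤ g v → ∀ w : E,
      (∀ β : ℝ, ‖v + β • w‖ ^ 2 ≤ 1 + β ^ 2 * ‖w‖ ^ 2) → |g w| ≤ η * ‖w‖ := by
  have hg := norm_nonneg g
  set b := η / (‖g‖ + 1) with hb
  have hb0 : 0 < b := by positivity
  have hbg : b * (‖g‖ + 1) = η := by rw [hb]; field_simp
  refine ⟨b * η / 2, by positivity, ?_⟩
  intro v hv w hw
  rcases eq_or_ne w 0 with rfl | hw0
  · simp
  have hn : 0 < ‖w‖ := norm_pos_iff.2 hw0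
  have key : ∀ s : ℝ, s ^ 2 = 1 → s * g w ≤ η * ‖w‖ := by
    intro s hs
    have h1 := hw (s * b / ‖w‖)
    have h2 : (s * b / ‖w‖) ^ 2 * ‖w‖ ^ 2 = b ^ 2 := by
      field_simp
      rw [hs]
    rw [h2] at h1
    have h3 : ‖v + (s * b / ‖w‖) • w‖ ≤ 1 + b ^ 2 / 2 := by
      apply abs_le_of_sq_le_sq' _ (by positivity) |>.2
      nlinarith [sq_nonneg (b ^ 2)]
    have h4 : g (v + (s * b / ‖w‖) • w) ≤ ‖g‖ * (1 + b ^ 2 / 2) :=
      calc _ ≤ ‖g (v + (s * b / ‖w‖) • w)‖ := le_abs_self _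
        _ ≤ ‖g‖ * ‖v + (s * b / ‖w‖) • w‖ := g.le_opNorm _
        _ ≤ _ := mul_le_mul_of_nonneg_left h3 hg
    rw [map_add, map_smul, smul_eq_mul] at h4
    have h5 : b * (s * g w / ‖w‖) ≤ b * η := by
      have : s * b / ‖w‖ * g w = b * (s * g w / ‖w‖) := by ring
      rw [this] at h4
      nlinarith [sq_nonneg b]
    have h6 := le_of_mul_le_mul_left h5 hb0
    rwa [div_le_iff₀ hn] at h6
  rw [abs_le]
  constructor
  · have := key (-1) (by norm_num)
    linarith
  · have := key 1 (by norm_num)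
    linarith

end Abstract

/-- every functional on `Z` has small tails -/
theorem tail1 (x : Z →L[ℝ] ℝ) {η : ℝ} (hη : 0 < η) :
    ∃ B : Finset T, ∀ z : Z, (∀ u ∈ B, z.f u = 0) → |x z| ≤ η * ‖z‖ := by
  classical
  obtain ⟨ε, hε, hs⟩ := smooth_lemma x (half_pos hη)
  obtain ⟨z', hz1, hz2⟩ := exists_norming x hε
  set N := z'.f.support.sup T.tr + 1 with hN
  have hz' : ∀ u, N ≤ u.tr → z'.f u = 0 := by
    intro u hu
    by_contra h
    have : u.tr ≤ z'.f.support.sup T.tr := le_sup (Finsupp.mem_support_iff.2 h)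
    omega
  have hsum : Summable (fun u : T => if u.tr < N then (x (e u)) ^ 2 else 0) := by
    apply summable_of_sum_le (c := N * ‖x‖ ^ 2)
    · intro u
      dsimp only
      split_ifs
      · positivity
      · exact le_rfl
    · intro B
      rw [← sum_filter]
      set B' := B.filter (fun u => u.tr < N) with hB'
      set s := ∑ u ∈ B', (x (e u)) ^ 2 with hs
      have hs0 : 0 ≤ s := sum_nonneg fun _ _ => sq_nonneg _
      set w : Z := ∑ u ∈ B', x (e u) • e u with hw
      have h1 : x w = s := by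
        simp [hw, hs, map_sum, sq]
      have h2 : ‖w‖ ^ 2 ≤ N * s := by
        have := norm_sq_le_sum_sq N w (by
          intro u hu
          rw [hw, comb_apply, if_neg]
          intro h
          have := (mem_filter.1 h).2
          omega) B' (by
          intro u hu
          rw [hw, comb_apply, if_neg hu])
        refine this.trans (le_of_eq ?_)
        congr 1
        refine sum_congr rfl fun u hu => ?_
        rw [hw, comb_apply, if_pos hu]
      have h3 : s ≤ ‖x‖ * ‖w‖ := by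
        rw [← h1]
        exact (le_abs_self _).trans (x.le_opNorm w)
      have h4 : s ^ 2 ≤ ‖x‖ ^ 2 * (N * s) :=
        calc s ^ 2 ≤ (‖x‖ * ‖w‖) ^ 2 := pow_le_pow_left₀ hs0 h3 2
          _ = ‖x‖ ^ 2 * ‖w‖ ^ 2 := by ring
          _ ≤ _ := mul_le_mul_of_nonneg_left h2 (sq_nonneg _)
      rcases hs0.eq_or_lt with h | h
      · rw [← h]; positivity
      · have : s * s ≤ (N * ‖x‖ ^ 2) * s := by nlinarith
        exact le_of_mul_le_mul_right this h
  obtain ⟨B, hB⟩ := summable_iff_vanishing_norm.1 hsum ((η / 2) ^ 2) (by positivity)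
  refine ⟨B, fun z hz => ?_⟩
  have hconv : Lower (fun u : T => u.tr < N) := by
    intro a b hab hb
    rw [hab.1]; exact hb
  set z1 := proj (fun u => u.tr < N) z with hz1'
  set z2 := proj (fun u => ¬ u.tr < N) z with hz2'
  have hsplit : z1 + z2 = z := proj_add_proj _ z
  have hn2 : ‖z2‖ ≤ ‖z‖ := norm_proj_le hconv.conv_not z
  have hn1 : ‖z1‖ ≤ ‖z‖ := norm_proj_le hconv.conv z
  have e2 : |x z2| ≤ η / 2 * ‖z2‖ := by
    apply hs z' hz2 z2
    intro β
    have := upper_sq N z' (β • z2) hz' (by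
      intro u hu
      have : z2.f u = 0 := proj_neg z (by simpa using hu)
      simp [this])
    rw [norm_smul, mul_pow, Real.norm_eq_abs, sq_abs] at this
    have h1 : ‖z'‖ ^ 2 ≤ 1 := by nlinarith [norm_nonneg z']
    linarith
  have e1 : |x z1| ≤ η / 2 * ‖z1‖ := by
    rw [apply_eq_sum x z1 z1.f.support (by simp)]
    have hd : Disjoint z1.f.support B := by
      rw [disjoint_left]
      intro u hu huB
      apply Finsupp.mem_support_iff.1 hu
      rw [hz1', proj_apply]
      split_ifs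
      · exact hz u huB
      · rfl
    have h1 := hB _ hd
    have h2 : ∑ u ∈ z1.f.support, (if u.tr < N then (x (e u)) ^ 2 else 0) =
        ∑ u ∈ z1.f.support, (x (e u)) ^ 2 := by
      refine sum_congr rfl fun u hu => if_pos ?_
      by_contra h
      exact Finsupp.mem_support_iff.1 hu (proj_neg z h)
    rw [h2] at h1
    have h3 : ∑ u ∈ z1.f.support, (x (e u)) ^ 2 ≤ (η / 2) ^ 2 := (le_abs_self _).trans h1.le
    apply abs_le.2 (abs_le_of_sq_le_sq' _ (by positivity))
    calc _ ≤ (∑ u ∈ z1.f.support, (z1.f u) ^ 2) * ∑ u ∈ z1.f.support, (x (e u)) ^ 2 :=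
          sum_mul_sq_le_sq_mul_sq _ _ _
      _ ≤ ‖z1‖ ^ 2 * (η / 2) ^ 2 :=
          mul_le_mul (sum_sq_le_norm_sq _ _) h3 (sum_nonneg fun _ _ => sq_nonneg _) (sq_nonneg _)
      _ = _ := by ring
  calc |x z| = |x z1 + x z2| := by rw [← map_add, hsplit]
    _ ≤ |x z1| + |x z2| := abs_add_le _ _
    _ ≤ η / 2 * ‖z‖ + η / 2 * ‖z‖ := by
        have := mul_le_mul_of_nonneg_left hn1 (half_pos hη).le
        have := mul_le_mul_of_nonneg_left hn2 (half_pos hη).le
        linarith
    _ = η * ‖z‖ := by ring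

end Vale.Agent.P069
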