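import Vale.Agent.P069.Basic

/-! The dual space `X`, its reflexivity and its weakly null trees. -/

namespace Vale.Agent.P069

open Finset Filter Topology

/-- the space of the counterexample -/
abbrev X : Type := StrongDual ℝ Z

/-- continuous coordinate projection -/
noncomputable def projL (p : T → Prop) (hp : Conv p) : Z →L[ℝ] Z :=
  (proj p).mkContinuous 1 (fun z => by simpa using norm_proj_le hp z)

@[simp] theorem projL_apply (p : T → Prop) (hp : Conv p) (z : Z) : projL p hp z = proj p z := rfl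

theorem norm_comp_projL_le (x : X) (p : T → Prop) (hp : Conv p) :
    ‖x.comp (projL p hp)‖ ≤ ‖x‖ := by
  apply ContinuousLinearMap.opNorm_le_bound _ (norm_nonneg _)
  intro z
  calc _ = ‖x (proj p z)‖ := rfl
    _ ≤ ‖x‖ * ‖proj p z‖ := x.le_opNorm _
    _ ≤ _ := mul_le_mul_of_nonneg_left (norm_proj_le hp z) (norm_nonneg _)

/-- summation over a segment as a linear map -/
noncomputable def evL (S : Finset T) : Z →ₗ[ℝ] ℝ where
  toFun z := sm z S
  map_add' z w := sm_add z w S
  map_smul' a z := sm_smul a z S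

/-- summation over a segment as an element of `X` -/
noncomputable def ev (S : Finset T) (h : Seg S) : X :=
  (evL S).mkContinuous 1 (fun z => by
    rw [one_mul]
    exact abs_sm_le z h)

@[simp] theorem ev_apply (S : Finset T) (h : Seg S) (z : Z) : ev S h z = sm z S := rfl

/-- coordinate functionals -/
noncomputable def co (u : T) : X := ev {u} (seg_single u)

@[simp] theorem co_apply (u : T) (z : Z) : co u z = z.f u := by simp [co]

theorem norm_ev_le (S : Finset T) (h : Seg S) : ‖ev S h‖ ≤ 1 :=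
  LinearMap.mkContinuous_norm_le _ zero_le_one _

theorem norm_ev (S : Finset T) (h : Seg S) (hne : S.Nonempty) : ‖ev S h‖ = 1 := by
  apply le_antisymm (norm_ev_le S h)
  obtain ⟨u, hu⟩ := hne
  have h1 : ev S h (e u) = 1 := by
    simp [sm, e_apply, hu]
  have h2 := (ev S h).le_opNorm (e u)
  rw [h1, norm_one] at h2
  have := mul_le_mul_of_nonneg_left (norm_e_le u) (norm_nonneg (ev S h))
  linarith

theorem norm_co (u : T) : ‖co u‖ = 1 := norm_ev _ _ (singleton_nonempty u)

theorem comp_proj_eq (x : X) (A : Finset T) (hA : Conv (· ∈ A)) :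
    x.comp (projL (· ∈ A) hA) = ∑ u ∈ A, x (e u) • co u := by
  ext z
  rw [ContinuousLinearMap.comp_apply, projL_apply,
    apply_eq_sum x _ A (fun u hu => proj_neg z hu)]
  simp only [_root_.sum_apply, _root_.smul_apply, co_apply, smul_eq_mul]
  refine sum_congr rfl fun u hu => ?_
  rw [proj_pos (p := (· ∈ A)) z hu, mul_comm]

theorem apply_eq_of_vanish (x : X) (A : Finset T) (hx : ∀ u ∈ A, x (e u) = 0) (z : Z) :
    x (proj (fun u => ¬ u ∈ A) z) = x z := by
  conv_rhs => rw [← proj_add_proj (· ∈ A) z, map_add]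
  rw [apply_eq_sum x (proj (· ∈ A) z) A (fun u hu => proj_neg z hu), sum_eq_zero, zero_add]
  intro u hu
  rw [hx u hu, mul_zero]

theorem sub_comp_apply (x : X) (A : Finset T) (hA : Conv (· ∈ A)) (z : Z) :
    (x - x.comp (projL (· ∈ A) hA)) z = x (proj (fun u => ¬ u ∈ A) z) := by
  rw [_root_.sub_apply, ContinuousLinearMap.comp_apply, projL_apply]
  conv_lhs => enter [1]; rw [← proj_add_proj (· ∈ A) z, map_add]
  ring

/-- finitely supported approximation in `X` -/
theorem approx (x : X) {η : ℝ} (hη : 0 < η) :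
    ∃ A : Finset T, ∃ hA : Lower (· ∈ A), ‖x - x.comp (projL (· ∈ A) hA.conv)‖ ≤ η := by
  obtain ⟨B, hB⟩ := tail1 x hη
  obtain ⟨A, hBA, hA⟩ := exists_lower B
  refine ⟨A, hA, ContinuousLinearMap.opNorm_le_bound _ hη.le fun z => ?_⟩
  rw [sub_comp_apply]
  calc _ ≤ η * ‖proj (fun u => ¬ u ∈ A) z‖ :=
        hB _ (fun u hu => proj_neg z (by simpa using hBA hu))
    _ ≤ _ := mul_le_mul_of_nonneg_left (norm_proj_le hA.conv_not z) hη.le

/-- every functional on `X` has small tails -/
theorem tail2 (f : X →L[ℝ] ℝ) {η : ℝ} (hη : 0 < η) :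
    ∃ A : Finset T, Lower (· ∈ A) ∧ ∀ x : X, (∀ u ∈ A, x (e u) = 0) → |f x| ≤ η * ‖x‖ := by
  obtain ⟨ε, hε, hs⟩ := smooth_lemma f hη
  obtain ⟨x0, h1, h2⟩ := exists_norming f (half_pos hε)
  have hf := norm_nonneg f
  obtain ⟨A, hA, h3⟩ := approx x0 (η := ε / 2 / (‖f‖ + 1)) (by positivity)
  refine ⟨A, hA, fun x hx => ?_⟩
  set x' := x0.comp (projL (· ∈ A) hA.conv) with hx'
  apply hs x'
  · have h4 : f (x0 - x') ≤ ‖f‖ * (ε / 2 / (‖f‖ + 1)) :=
      calc _ ≤ ‖f (x0 - x')‖ := le_abs_self _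
        _ ≤ ‖f‖ * ‖x0 - x'‖ := f.le_opNorm _
        _ ≤ _ := mul_le_mul_of_nonneg_left h3 hf
    have h5 : ‖f‖ * (ε / 2 / (‖f‖ + 1)) ≤ ε / 2 := by
      rw [← mul_div_assoc, div_le_iff₀ (by positivity)]
      nlinarith
    rw [map_sub] at h4
    linarith
  · intro β
    have h0 : 0 ≤ 1 + β ^ 2 * ‖x‖ ^ 2 := by positivity
    have : ‖x' + β • x‖ ≤ √(1 + β ^ 2 * ‖x‖ ^ 2) := by
      apply ContinuousLinearMap.opNorm_le_bound _ (Real.sqrt_nonneg _)
      intro z
      have e1 : (x' + β • x) z = x0 (proj (· ∈ A) z) + β * x (proj (fun u => ¬ u ∈ A) z) := by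
        rw [apply_eq_of_vanish x A hx]
        simp [hx']
      have e2 : |x0 (proj (· ∈ A) z)| ≤ ‖proj (· ∈ A) z‖ := by
        calc _ ≤ ‖x0‖ * ‖proj (· ∈ A) z‖ := x0.le_opNorm _
          _ ≤ 1 * ‖proj (· ∈ A) z‖ := mul_le_mul_of_nonneg_right h1 (norm_nonneg _)
          _ = _ := one_mul _
      have e3 : |x (proj (fun u => ¬ u ∈ A) z)| ≤ ‖x‖ * ‖proj (fun u => ¬ u ∈ A) z‖ :=
        x.le_opNorm _
      have e4 := lower_sq hA z
      set a := ‖proj (· ∈ A) z‖
      set b := ‖proj (fun u => ¬ u ∈ A) z‖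
      have e5 : |(x' + β • x) z| ≤ a + |β| * ‖x‖ * b := by
        rw [e1]
        calc _ ≤ |x0 (proj (· ∈ A) z)| + |β * x (proj (fun u => ¬ u ∈ A) z)| := abs_add_le _ _
          _ ≤ _ := by
            rw [abs_mul, mul_assoc]
            exact add_le_add e2 (mul_le_mul_of_nonneg_left e3 (abs_nonneg _))
      refine e5.trans ?_
      apply (abs_le_of_sq_le_sq' _ (by positivity)).2
      rw [mul_pow, Real.sq_sqrt h0]
      have e6 : (|β| * ‖x‖) ^ 2 = β ^ 2 * ‖x‖ ^ 2 := by rw [mul_pow, sq_abs]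
      rw [← e6]
      set c := |β| * ‖x‖
      calc (a + c * b) ^ 2 ≤ (1 + c ^ 2) * (a ^ 2 + b ^ 2) := by nlinarith [sq_nonneg (a * c - b)]
        _ ≤ _ := mul_le_mul_of_nonneg_left e4 (by positivity)
    calc _ ≤ (√(1 + β ^ 2 * ‖x‖ ^ 2)) ^ 2 := pow_le_pow_left₀ (norm_nonneg _) this 2
      _ = _ := Real.sq_sqrt h0

theorem reflexive : Function.Surjective (NormedSpace.inclusionInDoubleDual ℝ X) := by
  intro φ
  set J := NormedSpace.inclusionInDoubleDual ℝ Z with hJ
  refine ⟨φ.comp J, ?_⟩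
  ext f
  rw [NormedSpace.dual_def]
  set x : X := φ.comp J with hx
  apply eq_of_forall_dist_le
  intro ε hε
  set η := ε / (‖x‖ + ‖φ‖ + 1) with hηdef
  have hη : 0 < η := by positivity
  obtain ⟨A, hA, hf⟩ := tail2 f hη
  set z : Z := ∑ u ∈ A, f (co u) • e u with hz
  have h1 : ‖f - J z‖ ≤ η := by
    apply ContinuousLinearMap.opNorm_le_bound _ hη.le
    intro y
    have e1 : (f - J z) y = f (y - y.comp (projL (· ∈ A) hA.conv)) := by
      rw [comp_proj_eq, _root_.sub_apply, map_sub, hJ, NormedSpace.dual_def, hz]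
      simp [map_sum, mul_comm]
    rw [e1]
    have e2 : y - y.comp (projL (· ∈ A) hA.conv) = y.comp (projL _ hA.conv_not) := by
      ext w
      rw [sub_comp_apply]
      rfl
    rw [e2]
    calc _ ≤ η * ‖y.comp (projL _ hA.conv_not)‖ := by
          apply hf
          intro u hu
          have : proj (fun u => ¬ u ∈ A) (e u) = 0 := by
            apply Z.ext'
            intro v
            rw [proj_apply, e_apply]
            split_ifs with h1 h2
            · simp
            · exact absurd (h2 ▸ hu) h1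
            · simp
          rw [ContinuousLinearMap.comp_apply, projL_apply, this, map_zero]
      _ ≤ _ := mul_le_mul_of_nonneg_left (norm_comp_projL_le _ _ _) hη.le
  have h2 : (J z) x = φ (J z) := by
    rw [hJ, NormedSpace.dual_def]
    rfl
  have h3 : |(f - J z) x| ≤ η * ‖x‖ :=
    ((f - J z).le_opNorm x).trans (mul_le_mul_of_nonneg_right h1 (norm_nonneg _))
  have h4 : |φ (f - J z)| ≤ ‖φ‖ * η :=
    (φ.le_opNorm _).trans (mul_le_mul_of_nonneg_left h1 (norm_nonneg _))
  rw [_root_.sub_apply] at h3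
  rw [map_sub] at h4
  have h5 : η * (‖x‖ + ‖φ‖ + 1) = ε := by rw [hηdef]; field_simp
  rw [Real.dist_eq, abs_le] at *
  constructor <;> nlinarith [h3.1, h3.2, h4.1, h4.2]

theorem separable : TopologicalSpace.SeparableSpace X := by
  rw [← TopologicalSpace.isSeparable_univ_iff]
  have h1 : TopologicalSpace.IsSeparable
      (Submodule.span ℝ (Set.range co) : Set X) :=
    (Set.countable_range co).isSeparable.span
  refine h1.closure.mono ?_
  intro x _
  rw [Metric.mem_closure_iff]
  intro ε hε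
  obtain ⟨A, hA, h⟩ := approx x (half_pos hε)
  refine ⟨x.comp (projL (· ∈ A) hA.conv), ?_, ?_⟩
  · rw [comp_proj_eq]
    exact Submodule.sum_mem _ fun u _ =>
      Submodule.smul_mem _ _ (Submodule.subset_span ⟨u, rfl⟩)
  · rw [dist_eq_norm]
    linarith

theorem norm_comb_co_le (B : Finset T) (c : T → ℝ) :
    ‖∑ u ∈ B, c u • co u‖ ≤ √(∑ u ∈ B, (c u) ^ 2) := by
  apply ContinuousLinearMap.opNorm_le_bound _ (Real.sqrt_nonneg _)
  intro z
  have h0 : 0 ≤ ∑ u ∈ B, (c u) ^ 2 := sum_nonneg fun _ _ => sq_nonneg _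
  simp only [_root_.sum_apply, _root_.smul_apply, co_apply, smul_eq_mul]
  apply abs_le.2 (abs_le_of_sq_le_sq' _ (by positivity))
  rw [mul_pow, Real.sq_sqrt h0]
  exact (sum_mul_sq_le_sq_mul_sq _ _ _).trans
    (mul_le_mul_of_nonneg_left (sum_sq_le_norm_sq z B) h0)

theorem weakly_null (c : ℕ → T) (hc : Function.Injective c) (f : X →L[ℝ] ℝ) :
    Tendsto (fun k => f (co (c k))) atTop (𝓝 0) := by
  have hsum : Summable (fun u : T => (f (co u)) ^ 2) := by
    apply summable_of_sum_le (c := ‖f‖ ^ 2) (fun u => sq_nonneg _)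
    intro B
    set s := ∑ u ∈ B, (f (co u)) ^ 2 with hs
    have hs0 : 0 ≤ s := sum_nonneg fun _ _ => sq_nonneg _
    have h1 : f (∑ u ∈ B, f (co u) • co u) = s := by
      simp [hs, map_sum, sq]
    have h2 : s ≤ ‖f‖ * √s := by
      calc s ≤ ‖f (∑ u ∈ B, f (co u) • co u)‖ := by rw [h1]; exact le_abs_self _
        _ ≤ ‖f‖ * ‖∑ u ∈ B, f (co u) • co u‖ := f.le_opNorm _
        _ ≤ _ := mul_le_mul_of_nonneg_left (norm_comb_co_le _ _) (norm_nonneg f)
    have h3 := Real.sq_sqrt hs0
    nlinarith [sq_nonneg (‖f‖ - √s)]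
  have h1 : Tendsto (fun k => (f (co (c k))) ^ 2) atTop (𝓝 0) :=
    (hsum.comp_injective hc).tendsto_atTop_zero
  have h2 := h1.sqrt
  simp only [Real.sqrt_sq_eq_abs, Real.sqrt_zero] at h2
  exact tendsto_zero_iff_abs_tendsto_zero _ |>.2 h2

/-- children of a node -/
def child (s : T) (h : s.ls.length < s.tr) (k : ℕ) : T :=
  ⟨(s.tr, s.ls ++ [k]), by simpa using h⟩

theorem child_tr (s : T) (h : s.ls.length < s.tr) (k : ℕ) : (child s h k).tr = s.tr := rfl
theorem child_ls (s : T) (h : s.ls.length < s.tr) (k : ℕ) : (child s h k).ls = s.ls ++ [k] := rfl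

theorem child_inj (s : T) (h : s.ls.length < s.tr) : Function.Injective (child s h) := by
  intro k l hkl
  have := congrArg T.ls hkl
  simpa [child_ls] using this

theorem ev_low_child (s : T) (h : s.ls.length < s.tr) (k : ℕ) :
    ev (low (child s h k)) (seg_low _) = ev (low s) (seg_low _) + co (child s h k) := by
  have h1 : low (child s h k) = insert (child s h k) (low s) := by
    ext u
    rw [mem_insert, mem_low, mem_low, T.le_def, T.le_def, child_tr, child_ls,
      List.prefix_concat_iff]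
    constructor
    · rintro ⟨h1, h2 | h2⟩
      · exact Or.inl (T.ext' h1 h2)
      · exact Or.inr ⟨h1, h2⟩
    · rintro (rfl | ⟨h1, h2⟩)
      · exact ⟨rfl, Or.inl rfl⟩
      · exact ⟨h1, Or.inr h2⟩
  have h2 : child s h k ∉ low s := by
    rw [mem_low]
    intro h3
    have := h3.2.length_le
    simp [child_ls] at this
  ext z
  simp only [ev_apply, _root_.add_apply, co_apply, sm]
  rw [h1, sum_insert h2, add_comm]

end Vale.Agent.P069
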