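import Vale.Agent.P069.Dual

/-! No equivalent norm on `X` is asymptotically uniformly convex. -/

namespace Vale.Agent.P069

open Finset Filter Topology

section Abstract

variable {E : Type*} [NormedAddCommGroup E] [NormedSpace ℝ E]

theorem tendsto_of_weak {V : Type*} [NormedAddCommGroup V] [NormedSpace ℝ V]
    [FiniteDimensional ℝ V] (L : E →L[ℝ] V) (v : ℕ → E)
    (hv : ∀ f : E →L[ℝ] ℝ, Tendsto (fun k => f (v k)) atTop (𝓝 0)) :
    Tendsto (fun k => L (v k)) atTop (𝓝 0) := by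
  set b := (Module.finBasis ℝ V).equivFun.toContinuousLinearEquiv with hb
  have h1 : Tendsto (fun k => b (L (v k))) atTop (𝓝 0) := by
    rw [tendsto_pi_nhds]
    intro i
    exact hv ((ContinuousLinearMap.proj (R := ℝ)
      (φ := fun _ : Fin (Module.finrank ℝ V) => ℝ) i).comp (b.toContinuousLinearMap.comp L))
  have h2 := (b.symm.continuous.tendsto 0).comp h1
  simpa [Function.comp_def] using h2

theorem near_of_weak (F : Submodule ℝ E) (hF : IsClosed (F : Set E))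
    (hfd : FiniteDimensional ℝ (E ⧸ F)) (v : ℕ → E)
    (hv : ∀ f : E →L[ℝ] ℝ, Tendsto (fun k => f (v k)) atTop (𝓝 0)) {ε : ℝ} (hε : 0 < ε) :
    ∃ k, ∃ y ∈ F, ‖v k - y‖ ≤ ε := by
  have := hF
  let L : E →L[ℝ] (E ⧸ F) := F.mkQ.mkContinuous 1 (fun x => by
    rw [one_mul]
    exact Submodule.Quotient.norm_mk_le F x)
  have h1 := tendsto_of_weak L v hv
  rw [NormedAddGroup.tendsto_nhds_zero] at h1
  obtain ⟨k, hk⟩ := (h1 (ε / 2) (half_pos hε)).exists
  obtain ⟨m, hm1, hm2⟩ := Submodule.Quotient.norm_mk_lt (L (v k)) (half_pos hε)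
  refine ⟨k, v k - m, ?_, ?_⟩
  · rw [← Submodule.Quotient.eq]
    exact hm1.symm
  · rw [sub_sub_cancel]
    linarith

theorem growth_step (N : Seminorm ℝ E) {c C δ : ℝ} (hc : 0 < c) (hC : 0 < C) (hδ : 0 < δ)
    (hN : ∀ x, c * ‖x‖ ≤ N x ∧ N x ≤ C * ‖x‖)
    (h : ∀ x, N x = 1 → ∃ F : Submodule ℝ E, IsClosed (F : Set E) ∧
      FiniteDimensional ℝ (E ⧸ F) ∧ ∀ y ∈ F, N y = 1 → δ < N (x + (c / (2 * C)) • y) - 1)
    (x : E) (hx : ‖x‖ = 1) (v : ℕ → E) (hv1 : ∀ k, ‖v k‖ = 1)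
    (hv : ∀ f : E →L[ℝ] ℝ, Tendsto (fun k => f (v k)) atTop (𝓝 0)) :
    ∃ k, N x + δ * c / 2 ≤ N (x + v k) := by
  have hx1 : c ≤ N x := by simpa [hx] using (hN x).1
  have hx2 : N x ≤ C := by simpa [hx] using (hN x).2
  have hx0 : 0 < N x := hc.trans_le hx1
  obtain ⟨F, hF, hfd, hFy⟩ := h ((N x)⁻¹ • x) (by
    rw [map_smul_eq_mul, Real.norm_eq_abs, abs_of_pos (inv_pos.2 hx0), inv_mul_cancel₀ hx0.ne'])
  obtain ⟨k, y, hyF, hy⟩ := near_of_weak F hF hfd v hv
    (ε := min (1 / 2) (δ * c / (2 * C))) (by positivity)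
  refine ⟨k, ?_⟩
  have hy1 : ‖v k - y‖ ≤ 1 / 2 := hy.trans (min_le_left _ _)
  have hy2 : ‖v k - y‖ ≤ δ * c / (2 * C) := hy.trans (min_le_right _ _)
  have hy3 : 1 / 2 ≤ ‖y‖ := by
    have := norm_sub_norm_le (v k) y
    rw [hv1 k] at this
    linarith
  have hy4 : c / 2 ≤ N y := by
    have := (hN y).1
    nlinarith
  have hy0 : 0 < N y := (half_pos hc).trans_le hy4
  have h1 := hFy ((N y)⁻¹ • y) (F.smul_mem _ hyF) (by
    rw [map_smul_eq_mul, Real.norm_eq_abs, abs_of_pos (inv_pos.2 hy0), inv_mul_cancel₀ hy0.ne'])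
  set θ := c / (2 * C) * (N y)⁻¹ * N x with hθ
  have hθ0 : 0 < θ := by positivity
  have hθ1 : θ ≤ 1 := by
    rw [hθ, mul_assoc, div_mul_eq_mul_div, div_le_one (by positivity), ← div_eq_inv_mul,
      ← mul_div_assoc, div_le_iff₀ hy0]
    nlinarith
  have h2 : (N x)⁻¹ • x + (c / (2 * C)) • (N y)⁻¹ • y =
      (N x)⁻¹ • ((1 - θ) • x + θ • (x + y)) := by
    rw [smul_add θ, ← add_assoc, ← add_smul, sub_add_cancel, one_smul, smul_add, smul_smul,
      smul_smul]
    congr 2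
    rw [hθ]
    field_simp
  rw [h2, map_smul_eq_mul, Real.norm_eq_abs, abs_of_pos (inv_pos.2 hx0)] at h1
  have h3 : N ((1 - θ) • x + θ • (x + y)) ≤ (1 - θ) * N x + θ * N (x + y) := by
    refine (map_add_le_add N _ _).trans (le_of_eq ?_)
    rw [map_smul_eq_mul, map_smul_eq_mul, Real.norm_eq_abs, Real.norm_eq_abs,
      abs_of_nonneg (by linarith), abs_of_pos hθ0]
  have h4 : (1 + δ) * N x < N ((1 - θ) • x + θ • (x + y)) := by
    rw [← div_eq_inv_mul, lt_sub_iff_add_lt, lt_div_iff₀ hx0] at h1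
    linarith
  have h5 : δ * N x < θ * (N (x + y) - N x) := by nlinarith
  have h6 : 0 < N (x + y) - N x := by
    by_contra hh
    have : θ * (N (x + y) - N x) ≤ 0 := mul_nonpos_of_nonneg_of_nonpos hθ0.le (not_lt.1 hh)
    have : 0 < δ * N x := by positivity
    linarith
  have h7 : δ * c ≤ N (x + y) - N x := by
    have : θ * (N (x + y) - N x) ≤ N (x + y) - N x := by nlinarith
    have : δ * c ≤ δ * N x := mul_le_mul_of_nonneg_left hx1 hδ.le
    linarith
  have h8 : N (x + y) ≤ N (x + v k) + δ * c / 2 := by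
    have e1 : x + y = (x + v k) + -(v k - y) := by abel
    have e2 : N (-(v k - y)) ≤ δ * c / 2 := by
      rw [map_neg_eq_map]
      calc _ ≤ C * ‖v k - y‖ := (hN _).2
        _ ≤ C * (δ * c / (2 * C)) := mul_le_mul_of_nonneg_left hy2 hC.le
        _ = _ := by field_simp
    rw [e1]
    exact (map_add_le_add N _ _).trans (by linarith)
  linarith

end Abstract

theorem infinite_dim : ¬ FiniteDimensional ℝ X := by
  intro h
  let s : T := ⟨(1, []), by simp⟩
  have hs : s.ls.length < s.tr := by simp [s, T.ls, T.tr]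
  have h1 := tendsto_of_weak (ContinuousLinearMap.id ℝ X) (fun k => co (child s hs k))
    (weakly_null _ (child_inj s hs))
  have h2 := h1.norm
  simp only [ContinuousLinearMap.id_apply, norm_co, norm_zero] at h2
  have := tendsto_nhds_unique h2 tendsto_const_nhds
  norm_num at this

theorem not_auc (N : Seminorm ℝ X) {c C δ : ℝ} (hc : 0 < c) (hC : 0 < C) (hδ : 0 < δ)
    (hN : ∀ x, c * ‖x‖ ≤ N x ∧ N x ≤ C * ‖x‖)
    (h : ∀ x, N x = 1 → ∃ F : Submodule ℝ X, IsClosed (F : Set X) ∧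
      FiniteDimensional ℝ (X ⧸ F) ∧ ∀ y ∈ F, N y = 1 → δ < N (x + (c / (2 * C)) • y) - 1) :
    False := by
  have hne : ∀ s : T, ‖ev (low s) (seg_low s)‖ = 1 := fun s =>
    norm_ev _ _ ⟨s, mem_low.2 le_rfl⟩
  have key : ∀ n j : ℕ, j ≤ n → ∃ s : T, s.tr = n ∧ s.ls.length = j ∧
      j * (δ * c / 2) ≤ N (ev (low s) (seg_low s)) := by
    intro n j
    induction j with
    | zero =>
      intro _
      exact ⟨⟨(n, []), by simp⟩, rfl, rfl, by simp⟩
    | succ j ih =>
      intro hj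
      obtain ⟨s, h1, h2, h3⟩ := ih (by omega)
      have hs : s.ls.length < s.tr := by omega
      obtain ⟨k, hk⟩ := growth_step N hc hC hδ hN h _ (hne s) (fun k => co (child s hs k))
        (fun k => norm_co _) (weakly_null _ (child_inj s hs))
      refine ⟨child s hs k, h1, by simp [child_ls, h2], ?_⟩
      rw [ev_low_child]
      push_cast
      linarith
  obtain ⟨n, hn⟩ := exists_nat_gt (C / (δ * c / 2))
  obtain ⟨s, -, -, h3⟩ := key n n le_rfl
  have h4 := (hN (ev (low s) (seg_low s))).2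
  rw [hne, mul_one] at h4
  rw [div_lt_iff₀ (by positivity)] at hn
  linarith

end Vale.Agent.P069
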