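import Mathlib

/-! The forest of countably branching trees of finite height and the James tree type norm. -/

namespace Vale.Agent.P069

open Finset

/-- nodes: a pair `(n, l)` with `l` a list of length at most `n` -/
def T : Type := {p : ℕ × List ℕ // p.2.length ≤ p.1}

instance : DecidableEq T := inferInstanceAs (DecidableEq {p : ℕ × List ℕ // p.2.length ≤ p.1})

instance : Countable T := inferInstanceAs (Countable {p : ℕ × List ℕ // p.2.length ≤ p.1})

/-- index of the tree containing the node -/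
def T.tr (u : T) : ℕ := u.1.1

/-- the list of the node -/
def T.ls (u : T) : List ℕ := u.1.2

theorem T.ext' {u v : T} (h1 : u.tr = v.tr) (h2 : u.ls = v.ls) : u = v :=
  Subtype.ext (Prod.ext h1 h2)

theorem T.len_le (u : T) : u.ls.length ≤ u.tr := u.2

instance : PartialOrder T where
  le u v := u.tr = v.tr ∧ u.ls <+: v.ls
  le_refl u := ⟨rfl, List.prefix_refl _⟩
  le_trans u v w h1 h2 := ⟨h1.1.trans h2.1, h1.2.trans h2.2⟩
  le_antisymm u v h1 h2 := T.ext' h1.1 (h1.2.eq_of_length_le h2.2.length_le)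

theorem T.le_def {u v : T} : u ≤ v ↔ u.tr = v.tr ∧ u.ls <+: v.ls := Iff.rfl

theorem T.chain {a b s : T} (ha : a ≤ s) (hb : b ≤ s) : a ≤ b ∨ b ≤ a := by
  rcases List.prefix_or_prefix_of_prefix ha.2 hb.2 with h | h
  · exact Or.inl ⟨ha.1.trans hb.1.symm, h⟩
  · exact Or.inr ⟨hb.1.trans ha.1.symm, h⟩

theorem T.finite_Iic (s : T) : (Set.Iic s).Finite := by
  have h1 : (T.ls '' Set.Iic s).Finite := by
    apply (s.ls.inits.toFinset.finite_toSet).subset
    rintro _ ⟨u, hu, rfl⟩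
    simpa using hu.2
  refine Set.Finite.of_finite_image h1 ?_
  intro u hu v hv h
  exact T.ext' (hu.1.trans hv.1.symm) h

/-- the finite set of all nodes below or equal to `s` -/
noncomputable def low (s : T) : Finset T := (T.finite_Iic s).toFinset

@[simp] theorem mem_low {s u : T} : u ∈ low s ↔ u ≤ s := by simp [low]

/-- a segment: a finite order-convex chain -/
structure Seg (S : Finset T) : Prop where
  cmp : ∀ a ∈ S, ∀ b ∈ S, a ≤ b ∨ b ≤ a
  conv : ∀ a ∈ S, ∀ b ∈ S, ∀ u, a ≤ u → u ≤ b → u ∈ S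

theorem seg_empty : Seg ∅ := ⟨by simp, by simp⟩

theorem seg_single (u : T) : Seg {u} := by
  refine ⟨by simp, ?_⟩
  intro a ha b hb v h1 h2
  rw [mem_singleton] at ha hb ⊢
  subst ha hb
  exact le_antisymm h2 h1

theorem seg_low (s : T) : Seg (low s) := by
  refine ⟨fun a ha b hb => T.chain (mem_low.1 ha) (mem_low.1 hb), ?_⟩
  intro a _ b hb u _ h2
  exact mem_low.2 (h2.trans (mem_low.1 hb))

/-- order-convex predicates -/
def Conv (p : T → Prop) : Prop := ∀ a b u, p a → p b → a ≤ u → u ≤ b → p u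

theorem Seg.filter {S : Finset T} (h : Seg S) (p : T → Prop) [DecidablePred p] (hp : Conv p) :
    Seg (S.filter p) := by
  refine ⟨fun a ha b hb => h.cmp a (mem_filter.1 ha).1 b (mem_filter.1 hb).1, ?_⟩
  intro a ha b hb u h1 h2
  rw [mem_filter] at ha hb ⊢
  exact ⟨h.conv a ha.1 b hb.1 u h1 h2, hp a b u ha.2 hb.2 h1 h2⟩

/-- lower predicates -/
def Lower (p : T → Prop) : Prop := ∀ a b, a ≤ b → p b → p a

theorem Lower.conv {p : T → Prop} (h : Lower p) : Conv p :=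
  fun _ b u _ hb _ h2 => h u b h2 hb

theorem Lower.conv_not {p : T → Prop} (h : Lower p) : Conv (fun u => ¬ p u) :=
  fun a _ u ha _ h1 _ hu => ha (h a u h1 hu)

theorem Seg.card_le {S : Finset T} (h : Seg S) {N : ℕ} (hN : ∀ u ∈ S, u.tr < N) : S.card ≤ N := by
  have : S.card ≤ (range N).card := by
    apply card_le_card_of_injOn (fun u => u.ls.length)
    · intro u hu
      simp only [coe_range, Set.mem_Iio]
      exact lt_of_le_of_lt u.len_le (hN u hu)
    · intro u hu v hv huv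
      rcases h.cmp u hu v hv with h1 | h1
      · exact T.ext' h1.1 (h1.2.eq_of_length huv)
      · exact (T.ext' h1.1 (h1.2.eq_of_length huv.symm)).symm
  simpa using this

/-- admissible families of segments -/
def Adm (𝒮 : Finset (Finset T)) : Prop :=
  (∀ S ∈ 𝒮, Seg S) ∧ ∀ S ∈ 𝒮, ∀ S' ∈ 𝒮, S ≠ S' → Disjoint S S'

/-- the space of finitely supported functions on the forest -/
def Z : Type := T →₀ ℝ

noncomputable instance : AddCommGroup Z := inferInstanceAs (AddCommGroup (T →₀ ℝ))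
noncomputable instance : Module ℝ Z := inferInstanceAs (Module ℝ (T →₀ ℝ))

/-- view as a finitely supported function -/
def Z.f (z : Z) : T →₀ ℝ := z

/-- view a finitely supported function as an element of `Z` -/
def Z.mk (z : T →₀ ℝ) : Z := z

@[simp] theorem Z.f_mk (z : T →₀ ℝ) : (Z.mk z).f = z := rfl
@[simp] theorem Z.mk_f (z : Z) : Z.mk z.f = z := rfl
@[simp] theorem Z.f_add (z w : Z) : (z + w).f = z.f + w.f := rfl
@[simp] theorem Z.f_sub (z w : Z) : (z - w).f = z.f - w.f := rfl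
@[simp] theorem Z.f_neg (z : Z) : (-z).f = -z.f := rfl
@[simp] theorem Z.f_zero : (0 : Z).f = 0 := rfl
@[simp] theorem Z.f_smul (a : ℝ) (z : Z) : (a • z).f = a • z.f := rfl

theorem Z.ext' {z w : Z} (h : ∀ u, z.f u = w.f u) : z = w := Finsupp.ext h

/-- sum over a set of nodes -/
def sm (z : Z) (S : Finset T) : ℝ := ∑ u ∈ S, z.f u

theorem sm_add (z w : Z) (S : Finset T) : sm (z + w) S = sm z S + sm w S := by
  simp [sm, sum_add_distrib]

theorem sm_smul (a : ℝ) (z : Z) (S : Finset T) : sm (a • z) S = a * sm z S := by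
  simp [sm, mul_sum]

theorem sm_neg (z : Z) (S : Finset T) : sm (-z) S = - sm z S := by
  simp [sm]

theorem sm_sub (z w : Z) (S : Finset T) : sm (z - w) S = sm z S - sm w S := by
  simp [sm]

@[simp] theorem sm_empty (z : Z) : sm z ∅ = 0 := by simp [sm]

@[simp] theorem sm_single (z : Z) (u : T) : sm z {u} = z.f u := by simp [sm]

/-- the value of a family -/
def sv (z : Z) (𝒮 : Finset (Finset T)) : ℝ := ∑ S ∈ 𝒮, (sm z S) ^ 2

theorem sv_nonneg (z : Z) (𝒮 : Finset (Finset T)) : 0 ≤ sv z 𝒮 :=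
  sum_nonneg fun _ _ => sq_nonneg _

theorem adm_empty : Adm ∅ := ⟨by simp, by simp⟩

theorem sum_disj_le {ι : Type*} (I : Finset ι) (S : ι → Finset T)
    (hd : ∀ i ∈ I, ∀ j ∈ I, i ≠ j → Disjoint (S i) (S j)) (g : T → ℝ) (hg : ∀ u, 0 ≤ g u)
    (B : Finset T) (hB : ∀ u, u ∉ B → g u = 0) :
    ∑ i ∈ I, ∑ u ∈ S i, g u ≤ ∑ u ∈ B, g u := by
  classical
  rw [← sum_biUnion (fun i hi j hj hij => hd i hi j hj hij)]
  calc ∑ u ∈ I.biUnion S, g u = ∑ u ∈ (I.biUnion S).filter (· ∈ B), g u := by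
        rw [sum_filter]
        refine sum_congr rfl fun u _ => ?_
        split_ifs with h
        · rfl
        · exact hB u h
    _ ≤ ∑ u ∈ B, g u := by
        apply sum_le_sum_of_subset_of_nonneg
        · intro u hu
          exact (mem_filter.1 hu).2
        · intro u _ _
          exact hg u

theorem sv_bdd (z : Z) : BddAbove {r | ∃ 𝒮, Adm 𝒮 ∧ r = √(sv z 𝒮)} := by
  refine ⟨∑ u ∈ z.f.support, |z.f u|, ?_⟩
  rintro _ ⟨𝒮, h, rfl⟩
  have h0 : 0 ≤ ∑ u ∈ z.f.support, |z.f u| := sum_nonneg fun _ _ => abs_nonneg _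
  apply Real.sqrt_le_iff.2 ⟨h0, ?_⟩
  have h1 : ∑ S ∈ 𝒮, ∑ u ∈ S, |z.f u| ≤ ∑ u ∈ z.f.support, |z.f u| :=
    sum_disj_le 𝒮 (fun S => S) h.2 _ (fun _ => abs_nonneg _) _ (by
      intro u hu
      simpa using hu)
  calc sv z 𝒮 ≤ ∑ S ∈ 𝒮, (∑ u ∈ S, |z.f u|) ^ 2 := by
        refine sum_le_sum fun S _ => ?_
        rw [← sq_abs (sm z S)]
        exact pow_le_pow_left₀ (abs_nonneg _) (abs_sum_le_sum_abs _ _) 2
    _ ≤ (∑ S ∈ 𝒮, ∑ u ∈ S, |z.f u|) ^ 2 :=
        sum_sq_le_sq_sum_of_nonneg fun S _ => sum_nonneg fun _ _ => abs_nonneg _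
    _ ≤ _ := pow_le_pow_left₀ (sum_nonneg fun S _ => sum_nonneg fun _ _ => abs_nonneg _) h1 2

/-- the James tree type norm -/
noncomputable def jn (z : Z) : ℝ := sSup {r | ∃ 𝒮, Adm 𝒮 ∧ r = √(sv z 𝒮)}

theorem sqrt_le_jn (z : Z) {𝒮 : Finset (Finset T)} (h : Adm 𝒮) : √(sv z 𝒮) ≤ jn z :=
  le_csSup (sv_bdd z) ⟨𝒮, h, rfl⟩

theorem jn_nonneg (z : Z) : 0 ≤ jn z := (Real.sqrt_nonneg _).trans (sqrt_le_jn z adm_empty)

theorem sv_le_jn (z : Z) {𝒮 : Finset (Finset T)} (h : Adm 𝒮) : sv z 𝒮 ≤ jn z ^ 2 :=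
  (Real.sqrt_le_iff.1 (sqrt_le_jn z h)).2

theorem jn_le (z : Z) {B : ℝ} (hB : 0 ≤ B) (h : ∀ 𝒮, Adm 𝒮 → sv z 𝒮 ≤ B ^ 2) : jn z ≤ B := by
  refine csSup_le (show Set.Nonempty _ from ⟨√(sv z ∅), ∅, adm_empty, rfl⟩) ?_
  rintro _ ⟨𝒮, h', rfl⟩
  exact Real.sqrt_le_iff.2 ⟨hB, h 𝒮 h'⟩

theorem jn_add (z w : Z) : jn (z + w) ≤ jn z + jn w := by
  apply jn_le _ (add_nonneg (jn_nonneg z) (jn_nonneg w))
  intro 𝒮 h
  have h1 := sv_le_jn z h
  have h2 := sv_le_jn w h
  have h3 : (∑ S ∈ 𝒮, sm z S * sm w S) ^ 2 ≤ (jn z * jn w) ^ 2 := by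
    calc _ ≤ sv z 𝒮 * sv w 𝒮 := sum_mul_sq_le_sq_mul_sq _ _ _
      _ ≤ jn z ^ 2 * jn w ^ 2 := mul_le_mul h1 h2 (sv_nonneg _ _) (sq_nonneg _)
      _ = _ := by ring
  have h4 : ∑ S ∈ 𝒮, sm z S * sm w S ≤ jn z * jn w :=
    le_trans (le_abs_self _) (abs_le_of_sq_le_sq' h3
      (mul_nonneg (jn_nonneg z) (jn_nonneg w)) |> abs_le.2)
  have h5 : sv (z + w) 𝒮 = sv z 𝒮 + 2 * ∑ S ∈ 𝒮, sm z S * sm w S + sv w 𝒮 := by
    simp only [sv, sm_add, mul_sum, ← sum_add_distrib]
    exact sum_congr rfl fun S _ => by ring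
  rw [h5]
  nlinarith

theorem jn_smul_le (a : ℝ) (z : Z) : jn (a • z) ≤ |a| * jn z := by
  apply jn_le _ (mul_nonneg (abs_nonneg _) (jn_nonneg z))
  intro 𝒮 h
  have h1 := sv_le_jn z h
  have h5 : sv (a • z) 𝒮 = a ^ 2 * sv z 𝒮 := by
    simp only [sv, sm_smul, mul_sum]
    exact sum_congr rfl fun S _ => by ring
  rw [h5, mul_pow, sq_abs]
  exact mul_le_mul_of_nonneg_left h1 (sq_nonneg _)

theorem adm_single {S : Finset T} (h : Seg S) : Adm {S} := by
  refine ⟨by simpa using h, ?_⟩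
  intro a ha b hb hab
  rw [mem_singleton] at ha hb
  exact absurd (ha.trans hb.symm) hab

theorem abs_sm_le_jn (z : Z) {S : Finset T} (h : Seg S) : |sm z S| ≤ jn z := by
  have := sv_le_jn z (adm_single h)
  simp only [sv, sum_singleton] at this
  exact abs_le_of_sq_le_sq' this (jn_nonneg z) |> abs_le.2

noncomputable instance : NormedAddCommGroup Z :=
  AddGroupNorm.toNormedAddCommGroup
    { toFun := jn
      map_zero' := by
        apply le_antisymm _ (jn_nonneg _)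
        apply jn_le _ le_rfl
        intro 𝒮 _
        simp [sv, sm]
      add_le' := jn_add
      neg' := by
        intro z
        have h : ∀ w : Z, jn (-w) ≤ jn w := fun w => by
          have := jn_smul_le (-1) w
          simpa using this
        exact le_antisymm (h z) (by simpa using h (-z))
      eq_zero_of_map_eq_zero' := by
        intro z hz
        apply Z.ext'
        intro u
        have := abs_sm_le_jn z (seg_single u)
        rw [hz, sm_single] at this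
        simpa using this }

theorem norm_eq (z : Z) : ‖z‖ = jn z := rfl

noncomputable instance : NormedSpace ℝ Z where
  norm_smul_le a z := jn_smul_le a z

theorem abs_sm_le (z : Z) {S : Finset T} (h : Seg S) : |sm z S| ≤ ‖z‖ := abs_sm_le_jn z h

theorem norm_le (z : Z) {B : ℝ} (hB : 0 ≤ B) (h : ∀ 𝒮, Adm 𝒮 → sv z 𝒮 ≤ B ^ 2) : ‖z‖ ≤ B :=
  jn_le z hB h

theorem norm_sq_le (z : Z) {B : ℝ} (h : ∀ 𝒮, Adm 𝒮 → sv z 𝒮 ≤ B) : ‖z‖ ^ 2 ≤ B := by
  have hB : 0 ≤ B := by simpa [sv] using h ∅ adm_empty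
  have := norm_le z (Real.sqrt_nonneg B) (by rwa [Real.sq_sqrt hB])
  calc ‖z‖ ^ 2 ≤ (√B) ^ 2 := pow_le_pow_left₀ (norm_nonneg _) this 2
    _ = B := Real.sq_sqrt hB

/-- indexed families -/
theorem fam_le (z : Z) {ι : Type*} (I : Finset ι) (S : ι → Finset T) (hS : ∀ i ∈ I, Seg (S i))
    (hd : ∀ i ∈ I, ∀ j ∈ I, i ≠ j → Disjoint (S i) (S j)) :
    ∑ i ∈ I, (sm z (S i)) ^ 2 ≤ ‖z‖ ^ 2 := by
  classical
  have h1 : ∑ i ∈ I, (sm z (S i)) ^ 2 = ∑ i ∈ I.filter (fun i => (S i).Nonempty), (sm z (S i)) ^ 2 := by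
    rw [sum_filter]
    refine sum_congr rfl fun i _ => ?_
    split_ifs with h
    · rfl
    · rw [not_nonempty_iff_eq_empty.1 h]
      simp
  have h2 : Set.InjOn S (I.filter (fun i => (S i).Nonempty) : Finset ι) := by
    intro i hi j hj hij
    by_contra hne
    rw [mem_coe, mem_filter] at hi hj
    have := hd i hi.1 j hj.1 hne
    rw [← hij, disjoint_self] at this
    exact hi.2.ne_empty this
  rw [h1, ← sum_image (f := fun S => (sm z S) ^ 2) h2]
  apply sv_le_jn z (𝒮 := (I.filter (fun i => (S i).Nonempty)).image S)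
  constructor
  · intro S' hS'
    obtain ⟨i, hi, rfl⟩ := mem_image.1 hS'
    exact hS i (mem_filter.1 hi).1
  · intro S1 h1 S2 h2 hne
    obtain ⟨i, hi, rfl⟩ := mem_image.1 h1
    obtain ⟨j, hj, rfl⟩ := mem_image.1 h2
    exact hd i (mem_filter.1 hi).1 j (mem_filter.1 hj).1 (fun h => hne (by rw [h]))

/-- each member of an admissible family is split into two segments -/
theorem split_le (z : Z) {𝒮 : Finset (Finset T)} (h : Adm 𝒮) (U V : Finset T → Finset T)
    (hU : ∀ S ∈ 𝒮, Seg (U S) ∧ U S ⊆ S) (hV : ∀ S ∈ 𝒮, Seg (V S) ∧ V S ⊆ S)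
    (hUV : ∀ S ∈ 𝒮, Disjoint (U S) (V S)) :
    ∑ S ∈ 𝒮, ((sm z (U S)) ^ 2 + (sm z (V S)) ^ 2) ≤ ‖z‖ ^ 2 := by
  classical
  have := fam_le z (𝒮.disjSum 𝒮) (Sum.elim U V) (by
    rintro (S | S) hS
    · exact (hU S (by simpa using hS)).1
    · exact (hV S (by simpa using hS)).1) (by
    rintro (S | S) hS (S' | S') hS' hne
    · have hS : S ∈ 𝒮 := by simpa using hS
      have hS' : S' ∈ 𝒮 := by simpa using hS'
      exact Disjoint.mono (hU S hS).2 (hU S' hS').2 (h.2 S hS S' hS' (by simpa using hne))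
    · have hS : S ∈ 𝒮 := by simpa using hS
      have hS' : S' ∈ 𝒮 := by simpa using hS'
      by_cases hh : S = S'
      · subst hh
        exact hUV S hS
      · exact Disjoint.mono (hU S hS).2 (hV S' hS').2 (h.2 S hS S' hS' hh)
    · have hS : S ∈ 𝒮 := by simpa using hS
      have hS' : S' ∈ 𝒮 := by simpa using hS'
      by_cases hh : S = S'
      · subst hh
        exact (hUV S hS).symm
      · exact Disjoint.mono (hV S hS).2 (hU S' hS').2 (h.2 S hS S' hS' hh)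
    · have hS : S ∈ 𝒮 := by simpa using hS
      have hS' : S' ∈ 𝒮 := by simpa using hS'
      exact Disjoint.mono (hV S hS).2 (hV S' hS').2 (h.2 S hS S' hS' (by simpa using hne)))
  rw [sum_disjSum] at this
  rw [sum_add_distrib]
  simpa using this

end Vale.Agent.P069
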